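import Vale.Agent.Lib.P176.F.Main

open CategoryTheory Vale.Agent.Lib.P176.F

universe u w

/-- Let `R` be a ring which is finite and free as a module over a central commutative artinian local
subring `Z` with maximal ideal `m`, and let `S = R / m R` (`IsRedMap Z φ` says that `φ : R → S` is
surjective with kernel `m R`). If every finitely generated `S`-module of finite projective dimension
has projective dimension at most `N0`, then the same holds for `R`: `findim R ≤ findim (R / m R)`. -/
theorem Vale.Agent.Results.P176.A0_central.result
    (Z : Type w) (R S : Type u) [CommRing Z] [IsLocalRing Z] [IsArtinianRing Z] [Ring R]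
    [Algebra Z R] [Module.Free Z R] [Module.Finite Z R] [Ring S] (φ : R →+* S) [IsRedMap Z φ]
    (N0 : ℕ)
    (h : ∀ X : ModuleCat.{u} S, Module.Finite S X → (∃ t : ℕ, HasProjectiveDimensionLE X t) →
      HasProjectiveDimensionLE X N0) :
    ∀ M : ModuleCat.{u} R, Module.Finite R M → (∃ t : ℕ, HasProjectiveDimensionLE M t) →
      HasProjectiveDimensionLE M N0 :=
  findim_le Z φ N0 h
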