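import Vale.Agent.Lib.P176.U.GlDim

open CategoryTheory

universe u v

/-- If all simple modules of an algebra of dimension `n` have finite projective dimension, then
every finitely generated module has projective dimension at most `N n`, where `N n` depends only
on `n`, not on the field or the algebra. -/
theorem Vale.Agent.Results.P176.A0_gldim.result (n : ℕ) :
    ∃ N : ℕ, ∀ (k : Type v) [Field k] (R : Type u) [Ring R] [Algebra k R] [FiniteDimensional k R],
      Module.finrank k R = n →
      (∀ S : ModuleCat.{u} R, IsSimpleModule R S → ∃ t : ℕ, HasProjectiveDimensionLE S t) →
      ∀ M : ModuleCat.{u} R, Module.Finite R M → HasProjectiveDimensionLE M N :=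
  Vale.Agent.Lib.P176.U.uniform_gldim.{u, v} n
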