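import Vale.Agent.Lib.P176.U.Levels

open CategoryTheory

universe u v

/-- Modules with a resolution of length `s` by direct summands of modules filtered by modules of
finite projective dimension with at most `G` generators have projective dimension bounded in terms
of `dim R`, `s`, `G` only. -/
theorem Vale.Agent.Results.P176.A0_levels.result (n s G : ℕ) :
    ∃ N : ℕ, ∀ (k : Type v) [Field k] (R : Type u) [Ring R] [Algebra k R] [FiniteDimensional k R],
      Module.finrank k R = n → ∀ M : ModuleCat.{u} R, Vale.Agent.Lib.P176.U.Lev G s M →
        HasProjectiveDimensionLE M N :=
  Vale.Agent.Lib.P176.U.uniform_lev.{u, v} n s G
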