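import Vale.Agent.Lib.P176.UniMain

open CategoryTheory

universe u v

/-- For all `n` and `G` there is `N₀`, depending on nothing else, such that for every field `k`,
every `n`-dimensional `k`-algebra `R`, all `t` and all `R`-modules `M`, `K`: if `K` is a `t`-th
syzygy of `M` and a direct sum (any index set) of modules with at most `G` generators, and `M` has
finite projective dimension, then `pd M ≤ t + N₀`. -/
theorem Vale.Agent.Results.P176.A0_uniform.result (n G : ℕ) :
    ∃ N₀ : ℕ, ∀ (k : Type v) [Field k] (R : Type u) [Ring R] [Algebra k R]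
      [FiniteDimensional k R], Module.finrank k R = n →
      ∀ (t : ℕ) (M K : ModuleCat.{u} R), Vale.Agent.Lib.P176.IsSyzygy t M K →
        Vale.Agent.Lib.P176.IsSumOfBounded G K →
        (∃ s : ℕ, HasProjectiveDimensionLE M s) → HasProjectiveDimensionLE M (t + N₀) :=
  Vale.Agent.Lib.P176.Uni.uniform_syzygy.{u, v} n G
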