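import Vale.Agent.Lib.P176.U.MainU

open CategoryTheory

universe u v

/-- Modules with at most `G` generators and finite projective dimension over an algebra of
dimension `n` have projective dimension at most `N n G`, uniformly over all fields and algebras. -/
theorem Vale.Agent.Results.P176.A0_uniform_gens.result (n G : ℕ) :
    ∃ N : ℕ, ∀ (k : Type v) [Field k] (R : Type u) [Ring R] [Algebra k R] [FiniteDimensional k R],
      Module.finrank k R = n → ∀ M : ModuleCat.{u} R,
        (∃ f : (Fin G → R) →ₗ[R] M, Function.Surjective f) →
        (∃ t : ℕ, HasProjectiveDimensionLE M t) → HasProjectiveDimensionLE M N :=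
  Vale.Agent.Lib.P176.U.uniform_pd.{u, v} n G
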