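import Vale.Agent.Lib.P176.SyzBound

open CategoryTheory

universe u

/-- Over a finite-dimensional algebra over a field, for every `G` there is `N₀` such that for all
`t` and all modules `M`, `K` (not assumed finitely generated): if `K` is a `t`-th syzygy of `M`
and a direct sum, over any index set, of modules generated by at most `G` elements, and if `M` has
finite projective dimension, then `pd M ≤ t + N₀`. -/
theorem Vale.Agent.Results.P176.A1_syzygy.result {k : Type*} [Field k] {R : Type u} [Ring R]
    [Algebra k R] [FiniteDimensional k R] (G : ℕ) :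
    ∃ N₀ : ℕ, ∀ (t : ℕ) (M K : ModuleCat.{u} R), Vale.Agent.Lib.P176.IsSyzygy t M K →
      Vale.Agent.Lib.P176.IsSumOfBounded G K →
      (∃ s : ℕ, HasProjectiveDimensionLE M s) → HasProjectiveDimensionLE M (t + N₀) :=
  Vale.Agent.Lib.P176.pd_le_of_syzygy_sum (k := k) G
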