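import Vale.Agent.Lib.P176.Bounded

open CategoryTheory

universe u

/-- For a finite-dimensional algebra `R` over a field `k` and every `B`, there is `N` such that every
`R`-module generated by at most `B` elements and of finite projective dimension has projective
dimension less than `N`. -/
theorem Vale.Agent.Results.P176.A_bounded.result {k : Type*} [Field k] {R : Type u} [Ring R]
    [Algebra k R] [FiniteDimensional k R] (B : ℕ) :
    ∃ N : ℕ, ∀ V : ModuleCat.{u} R, (∃ f : (Fin B → R) →ₗ[R] V, Function.Surjective f) →
      (∃ m, HasProjectiveDimensionLT V m) → HasProjectiveDimensionLT V N :=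
  Vale.Agent.Lib.P176.pd_bounded (k := k) B
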