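import Vale.Agent.Lib.P176.Syzy

open CategoryTheory

universe u

/-- If the modules of finite projective dimension have an `s`-th syzygy which is a finite direct
sum of modules with at most `G` generators, then the little finitistic dimension is finite. -/
theorem Vale.Agent.Results.P176.B_syzygies.result {k : Type*} [Field k] {R : Type u} [Ring R]
    [Algebra k R] [FiniteDimensional k R] (s G : ℕ)
    (h : ∀ M : ModuleCat.{u} R, Module.Finite R M → (∃ t : ℕ, HasProjectiveDimensionLE M t) →
      ∃ K : ModuleCat.{u} R, Vale.Agent.Lib.P176.IsSyz s K M ∧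
        ∃ (l : ℕ) (K' : Fin l → ModuleCat.{u} R),
          (∀ j, ∃ f : (Fin G → R) →ₗ[R] K' j, Function.Surjective f) ∧
          Nonempty (K ≃ₗ[R] ((j : Fin l) → K' j))) :
    ∃ N : ℕ, ∀ M : ModuleCat.{u} R, Module.Finite R M →
      (∃ t : ℕ, HasProjectiveDimensionLE M t) → HasProjectiveDimensionLE M N :=
  Vale.Agent.Lib.P176.findim_of_syz (k := k) s G h
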