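import Vale.Agent.Lib.P176.U.MainU

open CategoryTheory

universe u v

/-- A module of finite projective dimension with an `s`-th syzygy that is a finite direct sum of
modules with at most `G` generators has projective dimension bounded in terms of `dim R`, `s`, `G`
only, not the field or the algebra. -/
theorem Vale.Agent.Results.P176.C_uniform.result (n s G : ℕ) :
    ∃ N : ℕ, ∀ (k : Type v) [Field k] (R : Type u) [Ring R] [Algebra k R] [FiniteDimensional k R],
      Module.finrank k R = n → ∀ M K : ModuleCat.{u} R, Vale.Agent.Lib.P176.IsSyz s K M →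
        (∃ t : ℕ, HasProjectiveDimensionLE M t) →
        (∃ (l : ℕ) (K' : Fin l → ModuleCat.{u} R),
          (∀ j, ∃ f : (Fin G → R) →ₗ[R] K' j, Function.Surjective f) ∧
          Nonempty (K ≃ₗ[R] ((j : Fin l) → K' j))) →
        HasProjectiveDimensionLE M N :=
  Vale.Agent.Lib.P176.U.uniform_syz.{u, v} n s G
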